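import Vale.Agent.P045b.Base

/-!
# P045: the extension tree machine with group lemmas (König opening)

A group lemma `(X, q)` says: there is no bad hypergraph with an embedding of the state `X` and `q`
further edges which avoid all labelled vertices of the parts `0` and `1` and differ pairwise in the
parts `0` and `1`.  `q` is stored in the bits `34 .. 37` of the entry (`q = 0`: ordinary lemma).
-/

namespace Vale.Agent.P045g

open Vale.Agent.P045b

/-- number of further edges of the entry `e` -/
noncomputable def entQ (e : Nat) : Nat := Nat.land (Nat.shiftRight e 34) 15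

/-- a reference to the entry `e` is allowed if `q` further edges are left -/
noncomputable def qOK (e q t : Nat) : Bool :=
  Bool.and (Nat.ble (entQ e) q)
    (Bool.or (Nat.beq (entQ e) 0) (Bool.and (Nat.ble (sig t 0) 1) (Nat.ble (sig t 1) 1)))

/-- commit the pending edge; `kind = false`: new cover (only if `q = 0`), `kind = true`:
reference -/
noncomputable def commitG (P : Par) (db : Nat → Nat) (cur q : Nat)
    (ih : Nat → Nat → Nat → Nat → Nat → Nat → Nat → Nat) (kind : Bool)
    (K k U Fm s : Nat) : Nat :=
  Bool.rec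
    (Bool.rec 0 (avoid P ih K k U Fm s) (Nat.beq q 0))
    (Bool.rec 0
      (Nat.shiftRight s (Nat.add 24 (refLen P (entK (db (Nat.land s 16777215))))))
      (Bool.and (Nat.ble (Nat.succ (Nat.land s 16777215)) cur)
        (Bool.and (refOK P (db (Nat.land s 16777215)) K k U (Nat.shiftRight s 24))
          (qOK (db (Nat.land s 16777215)) q (Nat.shiftRight s 24)))))
    kind

/-- as `stepO` -/
noncomputable def stepOG (P : Par) (db : Nat → Nat) (cur q : Nat)
    (ih : Nat → Nat → Nat → Nat → Nat → Nat → Nat → Nat) (K k U Fm A Sg s : Nat) : Nat :=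
  Nat.rec
    (Bool.rec 0
        (opts (ih K k U Fm) Sg 16
          (Nat.land (Nat.shiftLeft 65535 (Nat.mul 16 (Nat.land (Nat.shiftRight s 3) 7))) A) A
          (Nat.shiftRight s 6))
        (Nat.ble (Nat.succ (Nat.land (Nat.shiftRight s 3) 7)) P.r))
    (fun t _ => Bool.rec 0
      (commitG P db cur q ih (Nat.beq t 1)
        (Nat.lor K (Nat.shiftLeft A (Nat.mul P.wd k))) (Nat.succ k)
        (Nat.lor U (Nat.land A Fm))
        (Nat.lor (Nat.xor Fm (Nat.land A Fm)) (Nat.shiftLeft (Nat.land A Fm) 1))
        (Nat.shiftRight s 3))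
      (Bool.and (Nat.beq Sg P.all)
        (Nat.beq (Nat.land (Nat.shiftLeft (Nat.land A Fm) 1) P.top) 0)))
    (Nat.land (Nat.shiftRight s 1) 3)

/-- as `step` -/
noncomputable def stepG (P : Par) (db : Nat → Nat) (cur q : Nat)
    (ih : Nat → Nat → Nat → Nat → Nat → Nat → Nat → Nat) (K k U Fm A Sg s : Nat) : Nat :=
  Nat.rec
    (stepE P ih K k U Fm A Sg s (Nat.land (Nat.shiftRight s 1) 63) (Nat.land (Nat.shiftRight s 7) 63))
    (fun _ _ => stepOG P db cur q ih K k U Fm A Sg s)
    (Nat.land s 1)

/-- the machine; `q` = number of further edges besides the pending one -/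
noncomputable def goG (P : Par) (db : Nat → Nat) (cur q : Nat) :
    Nat → Nat → Nat → Nat → Nat → Nat → Nat → Nat → Nat :=
  Nat.rec (fun _ _ _ _ _ _ _ => 0) (fun _ ih => stepG P db cur q ih)

/-- the proof of the lemma `i`: an ordinary lemma starts with a cover, in a group lemma the pending
edge is one of the further edges (fresh in the parts `0` and `1`) -/
noncomputable def rootG (P : Par) (db : Nat → Nat) (fuel i K k U Fm s : Nat) : Nat :=
  Nat.rec (avoid P (goG P db i 0 fuel) K k U Fm s)
    (fun q _ => goG P db i q fuel K k U Fm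
      (Nat.xor (Nat.lor U Fm) (Nat.land U 4294967295)) 0 s)
    (entQ (db i))

/-- prove the lemmas `i0 ≤ i < i1` -/
noncomputable def runLG (P : Par) (db : Nat → Nat) (fuel i1 : Nat) : Nat → Nat → Nat → Nat :=
  Nat.rec (fun i s => Bool.rec 0 s (Nat.beq i i1))
    (fun _ ih i s =>
      Bool.rec
        (ih (Nat.succ i)
          (rootG P db fuel i (entE (db i)) (entK (db i)) (mkU (entN (db i)) P.r)
            (mkF (entN (db i)) P.r) s))
        s (Nat.beq i i1))

noncomputable def checkRangeG (P : Par) (db : Nat → Nat) (fuel i0 i1 s : Nat) : Bool :=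
  Nat.beq (runLG P db fuel i1 (Nat.succ (Nat.sub i1 i0)) i0 s) 1

end Vale.Agent.P045g
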