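import Vale.Agent.P045b.Sound
import Vale.Agent.P045.Konig
import Vale.Agent.P045g.Base

/-!
# P045: soundness of the extension tree machine with group lemmas
-/

namespace Vale.Agent.P045g

open Vale.Agent.P045b

universe u

/-- `g 0, …, g (q - 1)` are further edges: they avoid all labelled vertices of the parts `0`, `1`
and differ pairwise in the parts `0` and `1` -/
structure Fur {V : Type u} (E : (ℕ → V) → Prop) (q : ℕ) (φ : ℕ → ℕ → V) (c : ℕ → ℕ)
    (g : ℕ → ℕ → V) : Prop where
  mem : ∀ a, a < q → E (g a)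
  new : ∀ a, a < q → ∀ i, i < 2 → ∀ x, x < c i → g a i ≠ φ i x
  dif : ∀ a b, a < q → b < q → a ≠ b → ∀ i, i < 2 → g a i ≠ g b i

/-- the state cannot be realised in a bad hypergraph together with `q` further edges -/
def RefutedG (P : Par) (q K k U Fm : ℕ) : Prop :=
  ∀ (V : Type u) (E : (ℕ → V) → Prop), Bad P E → ∀ φ c, Emb P E K k U Fm φ c →
    ∀ g, ¬ Fur E q φ c g

/-- the entry `e` of the data base is refuted -/
def GoodG (P : Par) (e : ℕ) : Prop :=
  RefutedG.{u} P (entQ e) (entE e) (entK e) (mkU (entN e) P.r) (mkF (entN e) P.r)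

/-- what the machine proves for a pending edge -/
def ClaimG (P : Par) (q K k U Fm A Sg : ℕ) : Prop :=
  ∀ (V : Type u) (E : (ℕ → V) → Prop), Bad P E → ∀ φ c, Emb P E K k U Fm φ c →
    ∀ g, Fur E q φ c g → ∀ f, E f → (∀ a, a < q → ∀ i, i < 2 → g a i ≠ f i) →
      Fits P φ c A f → Sing P A Sg → False

/-! ### references -/

theorem refOK_soundG {P : Par} (hP : P.WF) (hr2 : 2 ≤ P.r) {e K k U Fm t q : ℕ}
    (h : refOK P e K k U t = true) (hq : qOK e q t = true) (hg : GoodG.{u} P e) :
    RefutedG.{u} P q K k U Fm := by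
  intro V E hB φ c hE g hF
  obtain ⟨hσ, h⟩ := rf_and h
  obtain ⟨hparts, h⟩ := rf_and h
  obtain ⟨hused, hedges⟩ := rf_and h
  obtain ⟨σ1, σ2⟩ := rf_injOK P.r (fun i => sig t i) P.r 0 hσ
  have σlt : ∀ i, i < P.r → sig t i < P.r := fun i hi => (σ1 i hi).1
  have σsurj := rf_surj P.r (fun i => sig t i) σlt σ2
  have hparts' := rf_all (fun i => Bool.and (Nat.ble (cnt (entN e) i) 14)
      (injOK 16 (fun x => lam t i x) (cnt (entN e) i) 0)) P.r hparts
  have hc14 : ∀ i, i < P.r → cnt (entN e) i ≤ 14 := fun i hi => rf_ble (rf_and (hparts' i hi)).1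
  have hlinj : ∀ i, i < P.r → ∀ x y, x < cnt (entN e) i → y < cnt (entN e) i →
      lam t i x = lam t i y → x = y := fun i hi =>
    (rf_injOK 16 (fun x => lam t i x) (cnt (entN e) i) 0 (rf_and (hparts' i hi)).2).2
  have hused' := rf_all (fun i => usedOK U t i (cnt (entN e) i)) P.r hused
  have hlt : ∀ i, i < P.r → ∀ x, x < cnt (entN e) i → lam t i x < c (sig t i) := by
    intro i hi x hx
    have h1 := rf_all (fun x => Nat.beq (Nat.land (Nat.shiftRight U
      (Nat.add (Nat.mul 16 (sig t i)) (lam t i x))) 1) 1) (cnt (entN e) i) (hused' i hi) x hx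
    have h2 : U.testBit (16 * sig t i + lam t i x) = true := rf_bit1 h1
    have h3 := rf_lam_le t i x
    exact (hE.used (sig t i) (σlt i hi) (lam t i x) (by omega)).mp h2
  have hedges' := rf_all (fun j => Bool.and (imgOK (entN e) (edgeAt P (entE e) j) P.r)
      (Bool.and (Nat.ble (Nat.succ (eidx P t j)) k)
        (Nat.beq (img t (edgeAt P (entE e) j) P.r) (edgeAt P K (eidx P t j))))) (entK e) hedges
  refine hg V (fun e' => ∃ e, E e ∧ ∀ i, i < P.r → e' i = e (sig t i))
    (rf_bad hB (fun i => sig t i) σlt σsurj) (fun i x => φ (sig t i) (lam t i x))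
    (fun i => cnt (entN e) i) ⟨hc14, ?_, ?_, ?_, ?_⟩ (fun a i => g a (sig t i)) ?_
  · intro i hi x hx
    rw [rf_mkU]
    constructor
    · rintro ⟨i', hi', x', hx', hp⟩
      have := rf_cnt_le (entN e) i'
      have h1 : i = i' := by omega
      subst h1
      omega
    · intro h1
      exact ⟨i, hi, x, h1, rfl⟩
  · intro i hi x hx
    rw [rf_mkF]
    constructor
    · rintro ⟨i', hi', hp⟩
      have := rf_cnt_le (entN e) i'
      have h1 : i = i' := by omega
      subst h1
      omega
    · intro h1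
      exact ⟨i, hi, by rw [h1]⟩
  · intro i hi x y hx hy hxy
    exact hlinj i hi x y hx hy
      (hE.inj (sig t i) (σlt i hi) _ _ (hlt i hi x hx) (hlt i hi y hy) hxy)
  · intro j hj
    obtain ⟨hi1, h⟩ := rf_and (hedges' j hj)
    obtain ⟨hi2, hi3⟩ := rf_and h
    have hjk : eidx P t j < k := rf_ble hi2
    have himg : img t (edgeAt P (entE e) j) P.r = edgeAt P K (eidx P t j) := by
      rwa [Nat.beq_eq] at hi3
    obtain ⟨e0, he0, hed⟩ := hE.edge (eidx P t j) hjk
    refine ⟨fun i => e0 (sig t i), ⟨e0, he0, fun i _ => rfl⟩, ?_⟩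
    intro i hi
    have h1 := rf_all (fun i => Bool.and
      (Nat.beq (Nat.land (Nat.shiftRight
        (Nat.land (Nat.shiftRight (edgeAt P (entE e) j) (Nat.mul 16 i)) 65535)
        (labOf (edgeAt P (entE e) j) i)) 1) 1)
      (Nat.ble (Nat.succ (labOf (edgeAt P (entE e) j) i)) (cnt (entN e) i))) P.r hi1 i hi
    obtain ⟨h2, h3⟩ := rf_and h1
    have h3' : labOf (edgeAt P (entE e) j) i < cnt (entN e) i := rf_ble h3
    have h5 : (Nat.land (Nat.shiftRight (edgeAt P (entE e) j) (Nat.mul 16 i)) 65535).testBit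
        (labOf (edgeAt P (entE e) j) i) = true := rf_bit1 h2
    rw [rf_land, rf_shr, Bool.and_eq_true] at h5
    have h6 : (edgeAt P (entE e) j).testBit (16 * i + labOf (edgeAt P (entE e) j) i) = true := h5.1
    rw [rf_edgeAt hP, Bool.and_eq_true] at h6
    refine ⟨labOf (edgeAt P (entE e) j) i, h3', h6.1, ?_⟩
    obtain ⟨y, hy, hyK, hye⟩ := hed (sig t i) (σlt i hi)
    have hy14 := hE.c14 (sig t i) (σlt i hi)
    have h7 : (edgeAt P K (eidx P t j)).testBit (16 * sig t i + y) = true := by
      rw [rf_edgeAt hP, Bool.and_eq_true, decide_eq_true_eq]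
      have := σlt i hi
      exact ⟨hyK, by omega⟩
    rw [← himg, rf_img] at h7
    obtain ⟨i', hi', hp⟩ := h7
    have h8 := rf_lam_le t i' (labOf (edgeAt P (entE e) j) i')
    have h9 : sig t i = sig t i' := by omega
    have h10 : i = i' := σ2 i i' hi hi' h9
    subst h10
    have h11 : y = lam t i (labOf (edgeAt P (entE e) j) i) := by omega
    show e0 (sig t i) = φ (sig t i) (lam t i (labOf (edgeAt P (entE e) j) i))
    rw [hye, h11]
  · obtain ⟨hq1, hq2⟩ := rf_and hq
    have hq1' : entQ e ≤ q := rf_ble hq1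
    have hs : ∀ a, a < entQ e → ∀ i, i < 2 → sig t i < 2 := by
      intro a ha i hi
      have h3 : Bool.and (Nat.ble (sig t 0) 1) (Nat.ble (sig t 1) 1) = true := by
        cases h4 : Nat.beq (entQ e) 0 with
        | true =>
          have h5 : entQ e = 0 := Nat.eq_of_beq_eq_true h4
          omega
        | false =>
          rw [h4] at hq2
          exact hq2
      obtain ⟨h5, h6⟩ := rf_and h3
      have h5' := rf_ble h5
      have h6' := rf_ble h6
      rcases Nat.lt_succ_iff_lt_or_eq.mp hi with h7 | h7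
      · have h8 : i = 0 := by omega
        subst h8
        omega
      · subst h7
        omega
    refine ⟨?_, ?_, ?_⟩
    · intro a ha
      exact ⟨g a, hF.mem a (by omega), fun i _ => rfl⟩
    · intro a ha i hi x hx
      exact hF.new a (by omega) (sig t i) (hs a ha i hi) (lam t i x) (hlt i (by omega) x hx)
    · intro a b ha hb hab i hi
      exact hF.dif a b (by omega) (by omega) hab (sig t i) (hs a ha i hi)

/-! ### commit -/

section sem

variable {V : Type u} {P : Par} {E : (ℕ → V) → Prop} {K k U Fm : ℕ} {φ : ℕ → ℕ → V} {c : ℕ → ℕ}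

theorem commit_embG (hP : P.WF) (hE : Emb P E K k U Fm φ c) {f : ℕ → V} (hf : E f)
    {A : ℕ} (hfit : Fits P φ c A f) (hsing : Sing P A P.all)
    (hov : Nat.land (Nat.shiftLeft (Nat.land A Fm) 1) P.top = 0) :
    ∃ φ1 c1, Emb P E (Nat.lor K (Nat.shiftLeft A (Nat.mul P.wd k))) (Nat.succ k)
      (Nat.lor U (Nat.land A Fm))
      (Nat.lor (Nat.xor Fm (Nat.land A Fm)) (Nat.shiftLeft (Nat.land A Fm) 1)) φ1 c1 ∧
      ∀ i x, (x < c i ∧ φ1 i x = φ i x) ∨ φ1 i x = f i := by
  classical
  have hl : ∀ i, i < P.r → lab φ c f i < 16 := by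
    intro i hi
    have h3 := lab_le φ c f i
    have h4 := hE.c14 i hi
    omega
  -- bits of `A land Fm`
  have hb : ∀ i, i < P.r → ∀ x, x < 16 →
      ((Nat.land A Fm).testBit (16 * i + x) = true ↔ (x = c i ∧ lab φ c f i = c i)) := by
    intro i hi x hx
    rw [tb_land, Bool.and_eq_true, hE.fresh i hi x hx]
    constructor
    · rintro ⟨h1, rfl⟩
      refine ⟨rfl, ?_⟩
      have hall : P.all.testBit (16 * i) = true := by
        rw [hP.all]
        have : 16 * i < 16 * P.r := by omega
        simp [this]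
      exact hsing i hi hall _ _ (hl i hi) hx (hfit i hi) h1
    · rintro ⟨rfl, h2⟩
      refine ⟨?_, rfl⟩
      have := hfit i hi
      rw [h2] at this
      exact this
  have hs : ∀ i, i < P.r → ∀ x, x < 16 →
      ((Nat.shiftLeft (Nat.land A Fm) 1).testBit (16 * i + x) = true ↔
        (x = c i + 1 ∧ lab φ c f i = c i)) := by
    intro i hi x hx
    rw [tb_shl, Bool.and_eq_true, decide_eq_true_eq]
    rcases Nat.eq_zero_or_pos x with rfl | hx0
    · constructor
      · rintro ⟨h1, h2⟩
        have hi0 : 1 ≤ i := by omega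
        have e : 16 * i + 0 - 1 = 16 * (i - 1) + 15 := by omega
        rw [e] at h2
        have h3 := ((hb (i - 1) (by omega) 15 (by omega)).1 h2).1
        have h4 := hE.c14 (i - 1) (by omega)
        omega
      · rintro ⟨h1, _⟩
        omega
    · have e : 16 * i + x - 1 = 16 * i + (x - 1) := by omega
      rw [e, hb i hi (x - 1) (by omega)]
      constructor
      · rintro ⟨_, h2, h3⟩
        exact ⟨by omega, h3⟩
      · rintro ⟨h2, h3⟩
        exact ⟨by omega, by omega, h3⟩
  refine ⟨fun i x => if x < c i then φ i x else f i,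
    fun i => if lab φ c f i = c i then c i + 1 else c i, ⟨?_, ?_, ?_, ?_, ?_⟩, ?_⟩
  · -- c14
    intro i hi
    have h14 := hE.c14 i hi
    show (if lab φ c f i = c i then c i + 1 else c i) ≤ 14
    split_ifs with h
    · by_contra hcon
      have e : c i = 14 := by omega
      have h1 : (Nat.shiftLeft (Nat.land A Fm) 1).testBit (16 * i + 15) = true :=
        (hs i hi 15 (by omega)).2 ⟨by omega, h⟩
      have h2 : (Nat.land (Nat.shiftLeft (Nat.land A Fm) 1) P.top).testBit (16 * i + 15) = true := by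
        rw [tb_land, h1, hP.top i hi]
        rfl
      rw [hov] at h2
      simp at h2
    · exact h14
  · -- used
    intro i hi x hx
    show _ ↔ x < (if lab φ c f i = c i then c i + 1 else c i)
    rw [tb_lor, Bool.or_eq_true, hE.used i hi x hx, hb i hi x hx]
    split_ifs with h
    · constructor
      · rintro (h1 | ⟨h1, _⟩) <;> omega
      · intro h1
        rcases Nat.lt_succ_iff_lt_or_eq.1 h1 with h2 | h2
        · exact Or.inl h2
        · exact Or.inr ⟨h2, h⟩
    · constructor
      · rintro (h1 | ⟨_, h1⟩)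
        · exact h1
        · exact absurd h1 h
      · exact Or.inl
  · -- fresh
    intro i hi x hx
    show _ ↔ x = (if lab φ c f i = c i then c i + 1 else c i)
    rw [tb_lor, Bool.or_eq_true, hs i hi x hx, tb_xor]
    split_ifs with h
    · constructor
      · rintro (h1 | ⟨h1, _⟩)
        · by_cases e : x = c i
          · rw [(hE.fresh i hi x hx).2 e, (hb i hi x hx).2 ⟨e, h⟩] at h1
            simp at h1
          · rw [bool_of_iff (hE.fresh i hi x hx) e,
              bool_of_iff (hb i hi x hx) (fun h2 => e h2.1)] at h1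
            simp at h1
        · exact h1
      · intro h1
        exact Or.inr ⟨h1, h⟩
    · rw [bool_of_iff (hb i hi x hx) (fun h2 => h h2.2), Bool.xor_false, hE.fresh i hi x hx]
      constructor
      · rintro (h1 | ⟨_, h1⟩)
        · exact h1
        · exact absurd h1 h
      · exact Or.inl
  · -- inj
    intro i hi x y hx hy hxy
    have hx' : x < (if lab φ c f i = c i then c i + 1 else c i) := hx
    have hy' : y < (if lab φ c f i = c i then c i + 1 else c i) := hy
    have hxy' : (if x < c i then φ i x else f i) = (if y < c i then φ i y else f i) := hxy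
    by_cases h : lab φ c f i = c i
    · rw [if_pos h] at hx' hy'
      by_cases h1 : x < c i
      · by_cases h2 : y < c i
        · rw [if_pos h1, if_pos h2] at hxy'
          exact hE.inj i hi x y h1 h2 hxy'
        · rw [if_pos h1, if_neg h2] at hxy'
          exact absurd hxy'.symm (lab_new h x h1)
      · by_cases h2 : y < c i
        · rw [if_neg h1, if_pos h2] at hxy'
          exact absurd hxy' (lab_new h y h2)
        · omega
    · rw [if_neg h] at hx' hy'
      rw [if_pos hx', if_pos hy'] at hxy'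
      exact hE.inj i hi x y hx' hy' hxy'
  · -- edges
    intro j hj
    rcases Nat.lt_succ_iff_lt_or_eq.1 hj with hj | rfl
    · obtain ⟨e, he, h⟩ := hE.edge j hj
      refine ⟨e, he, fun i hi => ?_⟩
      obtain ⟨x, hx, hbit, hv⟩ := h i hi
      refine ⟨x, ?_, ?_, ?_⟩
      · show x < (if lab φ c f i = c i then c i + 1 else c i)
        split_ifs <;> omega
      · rw [tb_lor, hbit]
        rfl
      · show e i = (if x < c i then φ i x else f i)
        rw [if_pos hx]
        exact hv
    · refine ⟨f, hf, fun i hi => ⟨lab φ c f i, ?_, ?_, ?_⟩⟩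
      · show lab φ c f i < (if lab φ c f i = c i then c i + 1 else c i)
        have := lab_le φ c f i
        split_ifs with h <;> omega
      · rw [tb_lor, tb_shl]
        have h1 : Nat.mul P.wd j ≤ P.wd * j + (16 * i + lab φ c f i) := by
          show P.wd * j ≤ _
          omega
        have h2 : P.wd * j + (16 * i + lab φ c f i) - Nat.mul P.wd j = 16 * i + lab φ c f i := by
          show P.wd * j + (16 * i + lab φ c f i) - P.wd * j = _
          omega
        rw [decide_eq_true h1, h2, hfit i hi, Bool.and_true, Bool.or_true]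
      · show f i = (if lab φ c f i < c i then φ i (lab φ c f i) else f i)
        split_ifs with h
        · exact lab_spec h
        · rfl
  · intro i x
    by_cases h : x < c i
    · exact Or.inl ⟨h, if_pos h⟩
    · exact Or.inr (if_neg h)

end sem

/-! ### covers -/

theorem claim_of_claimG {P : Par} {K k U Fm A Sg : ℕ} (h : ClaimG.{u} P 0 K k U Fm A Sg) :
    Claim.{u} P K k U Fm A Sg := by
  intro V E hB φ c hE f hf hfit hsing
  exact h V E hB φ c hE (fun _ => f)
    ⟨fun a ha => absurd ha (Nat.not_lt_zero a), fun a ha => absurd ha (Nat.not_lt_zero a),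
      fun a _ ha => absurd ha (Nat.not_lt_zero a)⟩ f hf
    (fun a ha => absurd ha (Nat.not_lt_zero a)) hfit hsing

theorem avoid_soundG {P : Par} {ih : ℕ → ℕ → ℕ → ℕ → ℕ → ℕ → ℕ → ℕ}
    (hih : ∀ K k U Fm A Sg s, ih K k U Fm A Sg s ≠ 0 → ClaimG.{u} P 0 K k U Fm A Sg)
    {K k U Fm s : ℕ} (h : avoid P ih K k U Fm s ≠ 0) (q : ℕ) : RefutedG.{u} P q K k U Fm := by
  intro V E hB φ c hE g _
  exact avoid_sound (fun K k U Fm A Sg s h1 => claim_of_claimG (hih K k U Fm A Sg s h1)) h
    V E hB φ c hE

/-! ### the machine -/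

theorem stepG_zero {P : Par} {db : ℕ → ℕ} {cur q : ℕ} {ih : ℕ → ℕ → ℕ → ℕ → ℕ → ℕ → ℕ → ℕ}
    (hz : ∀ K k U Fm A Sg, ih K k U Fm A Sg 0 = 0) (K k U Fm A Sg : ℕ) :
    stepG P db cur q ih K k U Fm A Sg 0 = 0 := by
  show opts (ih K k U Fm) Sg 16 _ A (Nat.mul (Nat.shiftRight 0 13) _) = 0
  have e : ∀ x, Nat.mul (Nat.shiftRight 0 13) x = 0 := fun x => Nat.zero_mul x
  rw [e]
  exact opts_zero (hz K k U Fm) Sg 16 _ A

theorem goG_zero (P : Par) (db : ℕ → ℕ) (cur q : ℕ) :
    ∀ fuel K k U Fm A Sg, goG P db cur q fuel K k U Fm A Sg 0 = 0 := by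
  intro fuel
  induction fuel with
  | zero => intro K k U Fm A Sg; rfl
  | succ n ih => exact stepG_zero (P := P) (db := db) (cur := cur) (q := q) ih

theorem stepG_sound {P : Par} (hP : P.WF) (hr2 : 2 ≤ P.r) {db : ℕ → ℕ} {cur q : ℕ}
    (hdb : ∀ j, j < cur → GoodG.{u} P (db j)) {ih : ℕ → ℕ → ℕ → ℕ → ℕ → ℕ → ℕ → ℕ}
    (hz : ∀ K k U Fm A Sg, ih K k U Fm A Sg 0 = 0)
    (hih : ∀ K k U Fm A Sg s, ih K k U Fm A Sg s ≠ 0 → ClaimG.{u} P q K k U Fm A Sg)
    {K k U Fm A Sg s : ℕ} (h : stepG P db cur q ih K k U Fm A Sg s ≠ 0) :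
    ClaimG.{u} P q K k U Fm A Sg := by
  intro V E hB φ c hE g hF f hf hgf hfit hsing
  have hch : ∀ A Sg s, ih K k U Fm A Sg s ≠ 0 → Fits P φ c A f → Sing P A Sg → False :=
    fun A Sg s h1 h2 h3 => hih K k U Fm A Sg s h1 V E hB φ c hE g hF f hf hgf h2 h3
  have hsub : ∀ Q q, (Nat.land Q A).testBit q = true → A.testBit q = true := by
    intro Q q h1
    rw [tb_land, Bool.and_eq_true] at h1
    exact h1.2
  unfold stepG at h
  generalize Nat.land s 1 = t0 at h
  cases t0 with
  | zero =>
    have h3 : stepE P ih K k U Fm A Sg s (Nat.land (Nat.shiftRight s 1) 63)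
      (Nat.land (Nat.shiftRight s 7) 63) ≠ 0 := h
    unfold stepE at h3
    generalize Nat.land (Nat.shiftRight s 1) 63 = a at h3
    generalize Nat.land (Nat.shiftRight s 7) 63 = b at h3
    have hok : Nat.lor (Nat.land (Nat.land (edgeAt P K a) (edgeAt P K b)) P.tw)
        (Nat.lor (Nat.sub (Nat.succ a) k) (Nat.sub (Nat.succ b) k)) = 0 := by
      by_contra hne
      have e1 : Nat.sub 1 (Nat.lor (Nat.land (Nat.land (edgeAt P K a) (edgeAt P K b)) P.tw)
        (Nat.lor (Nat.sub (Nat.succ a) k) (Nat.sub (Nat.succ b) k))) = 0 := by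
        generalize Nat.lor (Nat.land (Nat.land (edgeAt P K a) (edgeAt P K b)) P.tw)
          (Nat.lor (Nat.sub (Nat.succ a) k) (Nat.sub (Nat.succ b) k)) = z at hne
        show 1 - z = 0
        omega
      rw [e1] at h3
      have e2 : Nat.mul (Nat.shiftRight s 13) 0 = 0 := Nat.mul_zero _
      rw [e2] at h3
      exact h3 (opts_zero (hz K k U Fm) Sg 16 _ A)
    exact opts_sound hP hE.c14 (hz K k U Fm) hch Sg 16 _ A _ h3 hfit hsing (hsub _)
      (split_ex hP hB hE hf hfit hok)
  | succ t0 =>
    have h3 : stepOG P db cur q ih K k U Fm A Sg s ≠ 0 := h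
    unfold stepOG at h3
    generalize Nat.land (Nat.shiftRight s 1) 3 = t1 at h3
    cases t1 with
    | zero =>
      obtain ⟨hok, h4⟩ := brec_ne h3
      exact opts_sound hP hE.c14 (hz K k U Fm) hch Sg 16 _ A _ h4 hfit hsing (hsub _)
        (part_ex hE hfit (ble_lt hok))
    | succ t1 =>
      obtain ⟨hok, h4⟩ := brec_ne h3
      obtain ⟨hsg, hov⟩ := band hok
      rw [beq_eq hsg] at hsing
      obtain ⟨φ1, c1, hE1, hφ1⟩ := commit_embG hP hE hf hfit hsing (beq_eq hov)
      have hF1 : Fur E q φ1 c1 g := by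
        refine ⟨hF.mem, ?_, hF.dif⟩
        intro a ha i hi x _
        rcases hφ1 i x with ⟨h5, h6⟩ | h6
        · rw [h6]
          exact hF.new a ha i hi x h5
        · rw [h6]
          exact hgf a ha i hi
      unfold commitG at h4
      cases h2 : Nat.beq t1 1 with
      | false =>
        rw [h2] at h4
        obtain ⟨hq0, h5⟩ := brec_ne h4
        have hq0' : q = 0 := beq_eq hq0
        subst hq0'
        exact avoid_soundG hih h5 0 V E hB φ1 c1 hE1 g hF1
      | true =>
        rw [h2] at h4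
        obtain ⟨hok2, _⟩ := brec_ne h4
        obtain ⟨hlt, href⟩ := band hok2
        obtain ⟨href1, href2⟩ := band href
        exact refOK_soundG hP hr2 href1 href2 (hdb _ (ble_lt hlt)) V E hB φ1 c1 hE1 g hF1

theorem goG_sound {P : Par} (hP : P.WF) (hr2 : 2 ≤ P.r) {db : ℕ → ℕ} {cur q : ℕ}
    (hdb : ∀ j, j < cur → GoodG.{u} P (db j)) :
    ∀ fuel K k U Fm A Sg s, goG P db cur q fuel K k U Fm A Sg s ≠ 0 →
      ClaimG.{u} P q K k U Fm A Sg := by
  intro fuel
  induction fuel with
  | zero =>
    intro K k U Fm A Sg s h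
    exact absurd rfl h
  | succ n ih =>
    intro K k U Fm A Sg s h
    exact stepG_sound hP hr2 hdb (goG_zero P db cur q n) ih h

theorem tb_low32 (q : ℕ) : (4294967295 : ℕ).testBit q = decide (q < 32) := by
  have h : (4294967295 : ℕ) = 2 ^ 32 - 1 := by norm_num
  rw [h, Nat.testBit_two_pow_sub_one]

theorem rootG_zero (P : Par) (db : ℕ → ℕ) (fuel i K k U Fm : ℕ) :
    rootG P db fuel i K k U Fm 0 = 0 := by
  unfold rootG
  cases entQ (db i) with
  | zero =>
    show avoid P (goG P db i 0 fuel) K k U Fm 0 = 0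
    unfold avoid
    have e0 : Nat.shiftRight 0 (Nat.mul 7 P.c) = 0 := Nat.zero_shiftRight _
    rw [e0]
    exact goG_zero P db i 0 fuel _ _ _ _ _ _
  | succ q => exact goG_zero P db i q fuel _ _ _ _ _ _

theorem rootG_sound {P : Par} (hP : P.WF) (hr2 : 2 ≤ P.r) {db : ℕ → ℕ} {fuel i K k U Fm s : ℕ}
    (hdb : ∀ j, j < i → GoodG.{u} P (db j)) (h : rootG P db fuel i K k U Fm s ≠ 0) :
    RefutedG.{u} P (entQ (db i)) K k U Fm := by
  unfold rootG at h
  cases hq : entQ (db i) with
  | zero =>
    rw [hq] at h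
    exact avoid_soundG (goG_sound hP hr2 hdb fuel) h 0
  | succ q =>
    rw [hq] at h
    have h1 : goG P db i q fuel K k U Fm
      (Nat.xor (Nat.lor U Fm) (Nat.land U 4294967295)) 0 s ≠ 0 := h
    intro V E hB φ c hE g hF
    refine goG_sound hP hr2 hdb fuel _ _ _ _ _ _ _ h1 V E hB φ c hE g
      ⟨fun a ha => hF.mem a (by omega), fun a ha => hF.new a (by omega),
        fun a b ha hb => hF.dif a b (by omega) (by omega)⟩ (g q) (hF.mem q (by omega))
      (fun a ha i hi => hF.dif a q (by omega) (by omega) (by omega) i hi) ?_ ?_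
    · intro i hi
      have h14 := hE.c14 i hi
      rw [tb_xor, tb_lor, tb_land, tb_low32]
      rcases (lab_le φ c (g q) i).lt_or_eq with hlt | heq
      · have hU : U.testBit (16 * i + lab φ c (g q) i) = true :=
          (hE.used i hi _ (by omega)).2 hlt
        have hi2 : ¬ i < 2 := by
          intro hi2
          exact hF.new q (by omega) i hi2 _ hlt (lab_spec hlt)
        have h32 : ¬ (16 * i + lab φ c (g q) i < 32) := by omega
        rw [hU, decide_eq_false h32]
        rfl
      · have hU : U.testBit (16 * i + lab φ c (g q) i) = false :=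
          bool_of_iff (hE.used i hi _ (by omega)) (by omega)
        have hFm : Fm.testBit (16 * i + lab φ c (g q) i) = true :=
          (hE.fresh i hi _ (by omega)).2 heq
        rw [hU, hFm]
        rfl
    · intro i _ h0
      simp at h0

theorem runLG_zero (P : Par) (db : ℕ → ℕ) (fuel i1 : ℕ) :
    ∀ n i, runLG P db fuel i1 n i 0 = 0 := by
  intro n
  induction n with
  | zero =>
    intro i
    show (Bool.rec 0 0 (Nat.beq i i1) : ℕ) = 0
    cases Nat.beq i i1 <;> rfl
  | succ n ih =>
    intro i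
    show (Bool.rec (runLG P db fuel i1 n (Nat.succ i) (rootG P db fuel i _ _ _ _ 0)) 0
      (Nat.beq i i1) : ℕ) = 0
    cases Nat.beq i i1
    · show runLG P db fuel i1 n (Nat.succ i) (rootG P db fuel i _ _ _ _ 0) = 0
      rw [rootG_zero]
      exact ih _
    · rfl

theorem runLG_sound {P : Par} (hP : P.WF) (hr2 : 2 ≤ P.r) {db : ℕ → ℕ} {fuel i1 : ℕ} :
    ∀ n i s, runLG P db fuel i1 n i s ≠ 0 → (∀ j, j < i → GoodG.{u} P (db j)) →
      ∀ j, j < i1 → GoodG.{u} P (db j) := by
  intro n
  induction n with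
  | zero =>
    intro i s h h0
    have h' : (Bool.rec 0 s (Nat.beq i i1) : ℕ) ≠ 0 := h
    rw [← beq_eq (brec_ne h').1]
    exact h0
  | succ n ih =>
    intro i s h h0
    have h' : (Bool.rec (runLG P db fuel i1 n (Nat.succ i)
      (rootG P db fuel i (entE (db i)) (entK (db i)) (mkU (entN (db i)) P.r)
            (mkF (entN (db i)) P.r) s)) s (Nat.beq i i1) : ℕ) ≠ 0 := h
    cases hq : Nat.beq i i1 with
    | true =>
      rw [← beq_eq hq]
      exact h0
    | false =>
      rw [hq] at h'
      have h2 : runLG P db fuel i1 n (Nat.succ i)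
        (rootG P db fuel i (entE (db i)) (entK (db i)) (mkU (entN (db i)) P.r)
            (mkF (entN (db i)) P.r) s) ≠ 0 := h'
      have h3 : rootG P db fuel i (entE (db i)) (entK (db i)) (mkU (entN (db i)) P.r)
            (mkF (entN (db i)) P.r) s ≠ 0 := by
        intro h4
        rw [h4] at h2
        exact h2 (runLG_zero P db fuel i1 n _)
      refine ih _ _ h2 ?_
      intro j hj
      rcases Nat.lt_succ_iff_lt_or_eq.1 hj with hj | rfl
      · exact h0 j hj
      · exact rootG_sound hP hr2 h0 h3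

theorem checkRangeG_sound {P : Par} (hP : P.WF) (hr2 : 2 ≤ P.r) {db : ℕ → ℕ} {fuel i0 i1 s : ℕ}
    (h : checkRangeG P db fuel i0 i1 s = true) (h0 : ∀ j, j < i0 → GoodG.{u} P (db j)) :
    ∀ j, j < i1 → GoodG.{u} P (db j) := by
  have h1 := beq_eq h
  exact runLG_sound hP hr2 _ i0 s (by rw [h1]; exact one_ne_zero) h0

/-! ### the root -/

/-- the König opening: `c + 1` edges pairwise different in the parts `i` and `j`. -/
theorem bad_konig {V : Type u} {P : Par} {E : (ℕ → V) → Prop} (hB : Bad P E) {i j : ℕ}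
    (hi : i < P.r) (hj : j < P.r) :
    ∃ m : Fin (P.c + 1) → (ℕ → V), (∀ k, E (m k)) ∧ Function.Injective (fun k => m k i) ∧
      Function.Injective (fun k => m k j) := by
  classical
  rcases Vale.Agent.P045.konig_set {p : V × V | ∃ e, E e ∧ p = (e i, e j)} P.c with
    ⟨S, T, hc, hcov⟩ | ⟨m, hm, h1, h2⟩
  · exfalso
    obtain ⟨e, he, hno⟩ := hB.nocover
      (S.toList.map (fun x => (i, x)) ++ T.toList.map (fun x => (j, x))) (by
        simpa using hc)
    rcases hcov (e i, e j) ⟨e, he, rfl⟩ with h | h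
    · apply hno i hi
      exact List.mem_append_left _ (List.mem_map.mpr ⟨e i, Finset.mem_toList.mpr h, rfl⟩)
    · apply hno j hj
      exact List.mem_append_right _ (List.mem_map.mpr ⟨e j, Finset.mem_toList.mpr h, rfl⟩)
  · choose e he hme using hm
    refine ⟨e, he, ?_, ?_⟩
    · intro k l hkl
      apply h1
      show (m k).1 = (m l).1
      rw [hme k, hme l]
      exact hkl
    · intro k l hkl
      apply h2
      show (m k).2 = (m l).2
      rw [hme k, hme l]
      exact hkl

/-- if the empty state with at most `c + 1` further edges is refuted there is no bad hypergraph -/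
theorem not_bad_of_goodG_empty {P : Par} (hr2 : 2 ≤ P.r) (e : ℕ)
    (hK : Nat.beq (entK e) 0 = true) (hU : Nat.beq (mkU (entN e) P.r) 0 = true)
    (hFm : Nat.beq (mkF (entN e) P.r) (mkF 0 P.r) = true)
    (hQ : Nat.ble (entQ e) (Nat.succ P.c) = true) (hg : GoodG.{u} P e)
    (V : Type u) (E : (ℕ → V) → Prop) : ¬ Bad P E := by
  intro hB
  obtain ⟨f, _, _⟩ := hB.nocover [] (Nat.zero_le _)
  obtain ⟨m, hm, hm0, hm1⟩ := bad_konig hB (i := 0) (j := 1) (by omega) (by omega)
  have hQ' : entQ e ≤ P.c + 1 := ble_le hQ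
  unfold GoodG at hg
  rw [beq_eq hK, beq_eq hU, beq_eq hFm] at hg
  refine hg V E hB (fun _ _ => f 0) (fun _ => 0) ⟨fun _ _ => Nat.zero_le _, ?_, ?_, ?_, ?_⟩
    (fun a => if h : a < P.c + 1 then m ⟨a, h⟩ else f) ⟨?_, ?_, ?_⟩
  · intro i _ x _
    simp
  · intro i hi x hx
    rw [mkF_zero_tb]
    constructor
    · rintro ⟨i', _, h⟩
      omega
    · rintro rfl
      exact ⟨i, hi, rfl⟩
  · intro i _ x y hx
    exact absurd hx (Nat.not_lt_zero x)
  · intro j hj
    exact absurd hj (Nat.not_lt_zero j)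
  · intro a ha
    have h1 : a < P.c + 1 := by omega
    simp only [h1, dite_true]
    exact hm _
  · intro a _ i _ x hx
    exact absurd hx (Nat.not_lt_zero x)
  · intro a b ha hb hab i hi
    have h1 : a < P.c + 1 := by omega
    have h2 : b < P.c + 1 := by omega
    simp only [h1, h2, dite_true]
    intro h3
    apply hab
    rcases Nat.lt_succ_iff_lt_or_eq.mp hi with h7 | h7
    · have h8 : i = 0 := by omega
      subst h8
      exact congrArg Fin.val (hm0 h3)
    · subst h7
      exact congrArg Fin.val (hm1 h3)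

end Vale.Agent.P045g
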